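import Vale.Agent.P296.Amp

open Vale.Agent.P296 in
theorem Vale.Agent.Results.P296.Counterexample.result :
    ∃ E : HolBundle 2, Ample E ∧ ∀ h : HermMetric E, ¬ GriffithsPos h := by
  obtain ⟨m, _, h⟩ := no_metric
  exact ⟨EE m, ample_EE m, h⟩
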